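import Vale.Agent.P183.Mk7

/-!
# Coding ten Boolean entries by a number
-/

namespace Vale.Agent.P183

theorem exists_bitsOf (b : Fin 10 → Bool) : ∃ c : Fin 1024, bitsOf c = b := by
  refine ⟨⟨Nat.ofBits b, Nat.ofBits_lt_two_pow b⟩, ?_⟩
  funext i
  exact Nat.testBit_ofBits_lt b i.1 i.2

end Vale.Agent.P183
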