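import Vale.Agent.P183.WithBotRep

/-!
# Reduction to lattices with exactly seven elements
-/

namespace Vale.Agent.P183

/-- Induction on the number of missing elements. -/
private theorem representable_aux
    (H : ∀ (L : Type) [Lattice L] [Fintype L], Fintype.card L = 7 → Representable L)
    (k : ℕ) : ∀ (L : Type) [Lattice L] [Fintype L] [Nonempty L],
      Fintype.card L + k = 7 → Representable L := by
  induction k with
  | zero =>
    intro L _ _ _ h
    exact H L (by simpa using h)
  | succ k ih =>
    intro L _ _ _ h
    apply representable_of_withBot L
    have hc : Fintype.card (WithBot L) = Fintype.card L + 1 := Fintype.card_option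
    exact ih (WithBot L) (by rw [hc]; omega)

/-- It is enough to represent the lattices with exactly seven elements. -/
theorem representable_of_card_le
    (H : ∀ (L : Type) [Lattice L] [Fintype L], Fintype.card L = 7 → Representable L)
    (L : Type) [Lattice L] [Fintype L] [Nonempty L] (h : Fintype.card L ≤ 7) :
    Representable L :=
  representable_aux H (7 - Fintype.card L) L (by omega)

end Vale.Agent.P183
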