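import Vale.Agent.P183.Table

/-!
# Seven element lattices as Boolean tables with ten free entries
-/

namespace Vale.Agent.P183

/-- The table on `Fin 7` with bottom `0`, top `6`, contained in the usual order of `Fin 7`, whose
ten free entries (the pairs `i < j` of middle elements) are given by `b`. -/
def mk7 (b : Fin 10 → Bool) : Fin 7 → Fin 7 → Bool :=
  ![![true, true, true, true, true, true, true],
    ![false, true, b 0, b 1, b 2, b 3, true],
    ![false, false, true, b 4, b 5, b 6, true],
    ![false, false, false, true, b 7, b 8, true],
    ![false, false, false, false, true, b 9, true],
    ![false, false, false, false, false, true, true],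
    ![false, false, false, false, false, false, true]]

/-- The table is transitive and any two elements have a least upper bound. -/
def Valid (T : Fin 7 → Fin 7 → Bool) : Prop :=
  (∀ i j k, T i j = true → T j k = true → T i k = true) ∧
    ∀ i j, ∃ k, T i k = true ∧ T j k = true ∧ ∀ l, T i l = true → T j l = true → T k l = true

instance (T : Fin 7 → Fin 7 → Bool) : Decidable (Valid T) :=
  inferInstanceAs (Decidable (_ ∧ _))

/-- The ten entries coded by the binary digits of a number. -/
def bitsOf (c : ℕ) : Fin 10 → Bool := fun i => c.testBit i

end Vale.Agent.P183
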