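import Vale.Agent.P183.Mk7

/-!
# Every seven element lattice is given by a table
-/

namespace Vale.Agent.P183

/-- A seven element partial order has a monotone bijection onto `Fin 7`. -/
theorem exists_mono_equiv (L : Type) [PartialOrder L] [Fintype L] (h : Fintype.card L = 7) :
    ∃ e : L ≃ Fin 7, ∀ x y, x ≤ y → e x ≤ e y := by
  classical
  let _ : Fintype (LinearExtension L) := inferInstanceAs (Fintype L)
  have h' : Fintype.card (LinearExtension L) = 7 := h
  let f := Fintype.orderIsoFinOfCardEq (LinearExtension L) h'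
  refine ⟨(Equiv.refl L : L ≃ LinearExtension L).trans f.symm.toEquiv, ?_⟩
  intro x y hxy
  have h1 : toLinearExtension x ≤ toLinearExtension y := toLinearExtension.monotone hxy
  exact f.symm.monotone h1

/-- Every seven element lattice is given by a valid table `mk7 b`. -/
theorem exists_mk7 (L : Type) [Lattice L] [Fintype L] (h : Fintype.card L = 7) :
    ∃ (e : L ≃ Fin 7) (b : Fin 10 → Bool), Valid (mk7 b) ∧
      ∀ x y, x ≤ y ↔ mk7 b (e x) (e y) = true := by
  classical
  obtain ⟨e, he⟩ := exists_mono_equiv L h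
  let T : Fin 7 → Fin 7 → Bool := fun i j => decide (e.symm i ≤ e.symm j)
  have hT : ∀ i j, T i j = true ↔ e.symm i ≤ e.symm j := fun i j => by simp [T]
  have hrefl : ∀ i, T i i = true := fun i => (hT i i).2 le_rfl
  have hle : ∀ i j, T i j = true → i ≤ j := by
    intro i j hij
    have := he _ _ ((hT i j).1 hij)
    simpa using this
  have hlt : ∀ i j, j < i → T i j = false := by
    intro i j hji
    by_contra hne
    have : T i j = true := by simpa using hne
    exact absurd (hle i j this) (not_le.2 hji)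
  have h0 : ∀ j, T 0 j = true := by
    intro j
    rw [hT]
    have h1 : e (e.symm 0 ⊓ e.symm j) ≤ e (e.symm 0) := he _ _ inf_le_left
    rw [Equiv.apply_symm_apply] at h1
    have h2 : e (e.symm 0 ⊓ e.symm j) = 0 := le_antisymm h1 (Fin.zero_le _)
    have h3 : e.symm 0 ⊓ e.symm j = e.symm 0 := (Equiv.eq_symm_apply e).2 h2
    exact inf_eq_left.1 h3
  have h6 : ∀ i, T i 6 = true := by
    intro i
    rw [hT]
    have h1 : e (e.symm 6) ≤ e (e.symm 6 ⊔ e.symm i) := he _ _ le_sup_left
    rw [Equiv.apply_symm_apply] at h1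
    have h2 : e (e.symm 6 ⊔ e.symm i) = 6 := le_antisymm (Fin.le_last _) h1
    have h3 : e.symm 6 ⊔ e.symm i = e.symm 6 := (Equiv.eq_symm_apply e).2 h2
    exact sup_eq_left.1 h3
  let b : Fin 10 → Bool :=
    ![T 1 2, T 1 3, T 1 4, T 1 5, T 2 3, T 2 4, T 2 5, T 3 4, T 3 5, T 4 5]
  have hb : mk7 b = T := by
    funext i j
    fin_cases i <;> fin_cases j <;>
      first
        | exact (hrefl _).symm
        | exact (h0 _).symm
        | exact (h6 _).symm
        | exact (hlt _ _ (by decide)).symm
        | rfl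
  refine ⟨e, b, ?_, ?_⟩
  · rw [hb]
    refine ⟨?_, ?_⟩
    · intro i j k hij hjk
      exact (hT i k).2 (le_trans ((hT i j).1 hij) ((hT j k).1 hjk))
    · intro i j
      refine ⟨e (e.symm i ⊔ e.symm j), ?_, ?_, ?_⟩
      · rw [hT, Equiv.symm_apply_apply]; exact le_sup_left
      · rw [hT, Equiv.symm_apply_apply]; exact le_sup_right
      · intro l hil hjl
        rw [hT, Equiv.symm_apply_apply]
        exact sup_le ((hT i l).1 hil) ((hT j l).1 hjl)
  · intro x y
    rw [hb, hT, Equiv.symm_apply_apply, Equiv.symm_apply_apply]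

end Vale.Agent.P183
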