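import Vale.Agent.P183.Classify
import Vale.Agent.P183.Mk7Exists
import Vale.Agent.P183.Bits
import Vale.Agent.P183.CardLe
import Vale.Agent.P183.Inv.TableN7
import Vale.Agent.P183.Pack.M0
import Vale.Agent.P183.Pack.M1
import Vale.Agent.P183.Pack.M2
import Vale.Agent.P183.Pack.M3
import Vale.Agent.P183.Pack.M4
import Vale.Agent.P183.Pack.M5

/-!
# Every lattice with at most seven elements is representable
-/

namespace Vale.Agent.P183

/-- The relabelling between the two tables of the lattice `N7`. -/
def sigmaN7 : Fin 7 ≃ Fin 7 where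
  toFun := ![0, 2, 1, 4, 5, 3, 6]
  invFun := ![0, 2, 1, 5, 3, 4, 6]
  left_inv := by decide
  right_inv := by decide

theorem rep_22 : RepTable 7 (mk7 (bitsOf 22)) :=
  repTable_N7.perm sigmaN7 (by decide)

theorem rep_codes : ∀ c ∈ codes, RepTable 7 (mk7 (bitsOf c)) := by
  intro c hc
  simp only [codes, List.mem_cons, List.mem_nil_iff, or_false] at hc
  rcases hc with rfl | rfl | rfl | rfl | rfl | rfl | rfl | rfl | rfl | rfl | rfl | rfl | rfl | rfl | rfl | rfl | rfl | rfl | rfl | rfl | rfl | rfl | rfl | rfl | rfl | rfl | rfl | rfl | rfl | rfl | rfl | rfl | rfl | rfl | rfl | rfl | rfl | rfl | rfl | rfl | rfl | rfl | rfl | rfl | rfl | rfl | rfl | rfl | rfl | rfl | rfl | rfl | rfl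
  · exact Data.L00.rep
  · exact Data.L01.rep
  · exact Data.L02.rep
  · exact Data.L03.rep
  · exact Data.L04.rep
  · exact Data.L05.rep
  · exact Data.L06.rep
  · exact Data.L07.rep
  · exact rep_22
  · exact Data.L09.rep
  · exact Data.L10.rep
  · exact Data.L11.rep
  · exact Data.L12.rep
  · exact Data.L13.rep
  · exact Data.L14.rep
  · exact Data.L15.rep
  · exact Data.L16.rep
  · exact Data.L17.rep
  · exact Data.L18.rep
  · exact Data.L19.rep
  · exact Data.L20.rep
  · exact Data.L21.rep
  · exact Data.L22.rep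
  · exact Data.L23.rep
  · exact Data.L24.rep
  · exact Data.L25.rep
  · exact Data.L26.rep
  · exact Data.L27.rep
  · exact Data.L28.rep
  · exact Data.L29.rep
  · exact Data.L30.rep
  · exact Data.L31.rep
  · exact Data.L32.rep
  · exact Data.L33.rep
  · exact Data.L34.rep
  · exact Data.L35.rep
  · exact Data.L36.rep
  · exact Data.L37.rep
  · exact Data.L38.rep
  · exact Data.L39.rep
  · exact Data.L40.rep
  · exact Data.L41.rep
  · exact Data.L42.rep
  · exact Data.L43.rep
  · exact Data.L44.rep
  · exact Data.L45.rep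
  · exact Data.L46.rep
  · exact Data.L47.rep
  · exact Data.L48.rep
  · exact Data.L49.rep
  · exact Data.L50.rep
  · exact Data.L51.rep
  · exact Data.L52.rep

theorem rep_valid (c : ℕ) (hc : c < 1024) (h : Valid (mk7 (bitsOf c))) :
    RepTable 7 (mk7 (bitsOf c)) := by
  obtain ⟨p, -, hg⟩ := classify c hc h
  simp only [goodB, Bool.and_eq_true, List.all_eq_true, List.mem_finRange, forall_const,
    beq_iff_eq, List.contains_iff_mem] at hg
  obtain ⟨⟨⟨-, hmem⟩, hinv⟩, htab⟩ := hg
  exact (rep_codes _ hmem).perm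
    ⟨p.2.2.1, p.2.2.2, fun i => (hinv i).1, fun i => (hinv i).2⟩ (fun i j => htab i j)

theorem representable_seven (L : Type) [Lattice L] [Fintype L] (h : Fintype.card L = 7) :
    Representable L := by
  obtain ⟨e, b, hv, hle⟩ := exists_mk7 L h
  obtain ⟨c, rfl⟩ := exists_bitsOf b
  exact representable_of_table e hle (rep_valid c c.2 hv)

theorem representable_le_seven (L : Type) [Lattice L] [Fintype L] [Nonempty L]
    (h : Fintype.card L ≤ 7) : Representable L :=
  representable_of_card_le representable_seven L h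

end Vale.Agent.P183
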