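import Vale.Agent.P183.Table

/-!
# A checkable certificate for `Con (X, F) = L`, for unary algebras on `Fin N`
-/

namespace Vale.Agent.P183

namespace Cert

variable {N k m q : ℕ}

/-- The unary algebra on `Fin N` with the operations `op i`. -/
def unaryAlg (hN : 0 < N) (op : Fin k → Fin N → Fin N) : FinAlg where
  carrier := Fin N
  finite := inferInstance
  nonempty := ⟨⟨0, hN⟩⟩
  ops := List.ofFn fun i : Fin k => ⟨1, fun a => op i (a 0)⟩

theorem isCongr_iff (hN : 0 < N) (op : Fin k → Fin N → Fin N) (r : Setoid (Fin N)) :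
    IsCongr (unaryAlg hN op) r ↔ ∀ i a b, r a b → r (op i a) (op i b) := by
  constructor
  · intro h i a b hab
    have key : ∀ o ∈ (unaryAlg hN op).ops, ∀ a b : Fin o.1 → Fin N, (∀ i, r (a i) (b i)) →
        r (o.2 a) (o.2 b) := h
    exact key ⟨1, fun a => op i (a 0)⟩ ((List.mem_ofFn).2 ⟨i, rfl⟩) (fun _ => a) (fun _ => b)
      (fun _ => hab)
  · intro h o ho a b hab
    obtain ⟨i, rfl⟩ := (List.mem_ofFn).1 ho
    exact h i _ _ (hab 0)

/-- Apply a word in the operations. -/
def app (op : Fin k → Fin N → Fin N) : List (Fin k) → Fin N → Fin N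
  | [], a => a
  | i :: is, a => app op is (op i a)

/-- The word sends the unordered pair `u, u'` to the unordered pair `a, b`. -/
def hits (op : Fin k → Fin N → Fin N) (ws : List (Fin k)) (u u' a b : Fin N) : Bool :=
  (app op ws u == a && app op ws u' == b) || (app op ws u == b && app op ws u' == a)

/-- Follow a path whose edges are images of the pair `u, u'` under words. -/
def walk (op : Fin k → Fin N → Fin N) (u u' : Fin N) : List (List (Fin k)) → Fin N → Fin N
  | [], c => c
  | ws :: rest, c =>
    if app op ws u = c then walk op u u' rest (app op ws u')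
    else if app op ws u' = c then walk op u u' rest (app op ws u)
    else walk op u u' rest c

/-- Follow a path whose steps stay in a class of `lab s` or of `lab t`. -/
def jwalk (lab : Fin m → Fin N → Fin N) (s t : Fin m) : List (Fin N) → Fin N → Fin N
  | [], c => c
  | d :: rest, c =>
    if lab s c = lab s d ∨ lab t c = lab t d then jwalk lab s t rest d else jwalk lab s t rest c

section

variable {op : Fin k → Fin N → Fin N} {r : Setoid (Fin N)}

theorem app_rel (hr : ∀ i a b, r a b → r (op i a) (op i b)) :
    ∀ (ws : List (Fin k)) (a b : Fin N), r a b → r (app op ws a) (app op ws b)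
  | [], _, _, h => h
  | i :: is, a, b, h => app_rel hr is _ _ (hr i a b h)

theorem of_hits (hr : ∀ i a b, r a b → r (op i a) (op i b)) {ws : List (Fin k)}
    {u u' a b : Fin N} (h : hits op ws u u' a b = true) (hu : r u u') : r a b := by
  have h1 := app_rel hr ws u u' hu
  simp only [hits, Bool.or_eq_true, Bool.and_eq_true, beq_iff_eq] at h
  rcases h with ⟨h2, h3⟩ | ⟨h2, h3⟩
  · rw [h2, h3] at h1
    exact h1
  · rw [h2, h3] at h1
    exact r.symm h1

theorem walk_rel (hr : ∀ i a b, r a b → r (op i a) (op i b)) {u u' : Fin N} (hu : r u u') :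
    ∀ (p : List (List (Fin k))) (c : Fin N), r c (walk op u u' p c)
  | [], c => r.refl c
  | ws :: rest, c => by
    have h1 := app_rel hr ws u u' hu
    rw [walk]
    split_ifs with h2 h3
    · exact r.trans (h2 ▸ h1) (walk_rel hr hu rest _)
    · exact r.trans (h3 ▸ r.symm h1) (walk_rel hr hu rest _)
    · exact walk_rel hr hu rest c

theorem jwalk_rel {lab : Fin m → Fin N → Fin N} {s t : Fin m}
    (hs : ∀ a b, lab s a = lab s b → r a b) (ht : ∀ a b, lab t a = lab t b → r a b) :
    ∀ (p : List (Fin N)) (c : Fin N), r c (jwalk lab s t p c)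
  | [], c => r.refl c
  | d :: rest, c => by
    rw [jwalk]
    split_ifs with h
    · rcases h with h | h
      · exact r.trans (hs _ _ h) (jwalk_rel hs ht rest d)
      · exact r.trans (ht _ _ h) (jwalk_rel hs ht rest d)
    · exact jwalk_rel hs ht rest c

end

/-- The certificate theorem. -/
theorem repTable_of_cert (hN : 0 < N) (T : Fin m → Fin m → Bool) (op : Fin k → Fin N → Fin N)
    (lab : Fin m → Fin N → Fin N) (bot : Fin m)
    (cls : Fin N → Fin N → Fin q) (cp : Fin q → Fin N × Fin N)
    (move : Fin N → Fin N → List (Fin k)) (typ : Fin q → Fin m)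
    (path : Fin q → Fin N → List (List (Fin k)))
    (jn : Fin m → Fin m → Fin m) (jpath : Fin m → Fin m → Fin N → List (Fin N))
    (hbot : ∀ a, lab bot a = a)
    (h0 : ∀ t a, lab t (lab t a) = lab t a)
    (h1 : ∀ t i a, lab t (op i (lab t a)) = lab t (op i a))
    (h2 : ∀ s t, T s t = true ↔ ∀ a, lab t (lab s a) = lab t a)
    (h5 : ∀ s t, T s t = true → T t s = true → s = t)
    (h3a : ∀ u u', u = u' ∨ hits op (move u u') u u' (cp (cls u u')).1 (cp (cls u u')).2 = true)
    (h3b : ∀ c a, walk op (cp c).1 (cp c).2 (path c a) a = lab (typ c) a)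
    (h3c : ∀ u u', lab (typ (cls u u')) u = lab (typ (cls u u')) u')
    (h4a : ∀ s t, T s (jn s t) = true ∧ T t (jn s t) = true)
    (h4b : ∀ s t a, jwalk lab s t (jpath s t a) a = lab (jn s t) a) :
    RepTable m T := by
  classical
  let S : Fin m → Setoid (Fin N) := fun t => Setoid.ker (lab t)
  have S_iff : ∀ t a b, S t a b ↔ lab t a = lab t b := fun _ _ _ => Iff.rfl
  have S_congr : ∀ t, IsCongr (unaryAlg hN op) (S t) := by
    intro t
    rw [isCongr_iff]
    intro i a b hab
    have hab' : lab t a = lab t b := hab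
    change lab t (op i a) = lab t (op i b)
    rw [← h1 t i a, ← h1 t i b, hab']
  have S_le : ∀ s t, S s ≤ S t ↔ T s t = true := by
    intro s t
    rw [h2]
    constructor
    · intro h a
      exact h (show lab s (lab s a) = lab s a from h0 s a)
    · intro h a b hab
      have hab' : lab s a = lab s b := hab
      change lab t a = lab t b
      rw [← h a, ← h b, hab']
  have of_star : ∀ (r : Setoid (Fin N)) t, (∀ a, r a (lab t a)) → S t ≤ r := by
    intro r t h a b hab
    have hab' : lab t a = lab t b := hab
    exact r.trans (h a) (hab' ▸ r.symm (h b))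
  have surj : ∀ r : Setoid (Fin N), (∀ i a b, r a b → r (op i a) (op i b)) → ∃ t, r = S t := by
    intro r hr
    have typ_le : ∀ u u', r u u' → S (typ (cls u u')) ≤ r ∨ u = u' := by
      intro u u' hu
      rcases h3a u u' with h | h
      · exact Or.inr h
      · refine Or.inl (of_star r _ fun a => ?_)
        have := walk_rel hr (of_hits hr h hu) (path (cls u u') a) a
        rwa [h3b] at this
    have join_le : ∀ s t, S s ≤ r → S t ≤ r → S (jn s t) ≤ r := by
      intro s t hs ht
      refine of_star r _ fun a => ?_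
      have := jwalk_rel (lab := lab) (s := s) (t := t) (fun a b h => hs h) (fun a b h => ht h)
        (jpath s t a) a
      rwa [h4b] at this
    have hb : S bot ≤ r := by
      intro a b hab
      have hab' : lab bot a = lab bot b := hab
      rw [hbot, hbot] at hab'
      rw [hab']
    have big : ∀ l : List (Fin m), (∀ t ∈ l, S t ≤ r) →
        ∃ j, S j ≤ r ∧ ∀ t ∈ l, S t ≤ S j := by
      intro l
      induction l with
      | nil => exact fun _ => ⟨bot, hb, fun t ht => absurd ht List.not_mem_nil⟩
      | cons t l ih =>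
        intro h
        obtain ⟨j, hj, hj'⟩ := ih fun s hs => h s (List.mem_cons_of_mem _ hs)
        refine ⟨jn j t, join_le j t hj (h t List.mem_cons_self), fun s hs => ?_⟩
        rcases List.mem_cons.1 hs with rfl | hs
        · exact (S_le _ _).2 (h4a j s).2
        · exact (hj' s hs).trans ((S_le _ _).2 (h4a j t).1)
    obtain ⟨j, hj, hj'⟩ := big ((Finset.univ.filter fun t => S t ≤ r).toList) (fun t ht => by
      have := Finset.mem_toList.1 ht
      exact (Finset.mem_filter.1 this).2)
    refine ⟨j, le_antisymm ?_ hj⟩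
    intro a b hab
    rcases typ_le a b hab with h | rfl
    · have h1 : S (typ (cls a b)) ≤ S j :=
        hj' _ (Finset.mem_toList.2 (Finset.mem_filter.2 ⟨Finset.mem_univ _, h⟩))
      exact h1 (h3c a b)
    · exact (S j).refl a
  refine ⟨unaryAlg hN op, Equiv.ofBijective (fun t => (⟨S t, S_congr t⟩ : Con (unaryAlg hN op)))
    ⟨?_, ?_⟩, ?_⟩
  · intro s t hst
    have h : S s = S t := congrArg Subtype.val hst
    exact h5 s t ((S_le s t).1 h.le) ((S_le t s).1 h.ge)
  · rintro ⟨r, hr⟩
    obtain ⟨t, rfl⟩ := surj r ((isCongr_iff hN op r).1 hr)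
    exact ⟨t, rfl⟩
  · intro i j
    exact (S_le i j).symm

end Cert

end Vale.Agent.P183
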