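import Vale.Agent.P183.Classify.K00
import Vale.Agent.P183.Classify.K01
import Vale.Agent.P183.Classify.K02
import Vale.Agent.P183.Classify.K03
import Vale.Agent.P183.Classify.K04
import Vale.Agent.P183.Classify.K05
import Vale.Agent.P183.Classify.K06
import Vale.Agent.P183.Classify.K07

/-!
# Every valid table is a relabelling of one of 53 tables
-/

namespace Vale.Agent.P183

theorem tab_eq (c : ℕ) (hc : c < 1024) : mk7 (bitsOf c) = tab c := by
  have key : ∀ a, tabChunk a = true → ∀ d, d < 128 → mk7 (bitsOf (a + d)) = tab (a + d) := by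
    intro a ha d hd
    have h1 := (List.all_eq_true.1 ha) d (List.mem_range.2 hd)
    simp only [List.all_eq_true, List.mem_finRange, forall_const, beq_iff_eq] at h1
    funext i j
    exact h1 i j
  have hdiv : c / 128 < 8 := by omega
  have hmod : c % 128 < 128 := Nat.mod_lt _ (by norm_num)
  have hc' : 128 * (c / 128) + c % 128 = c := Nat.div_add_mod c 128
  rw [← hc']
  generalize c % 128 = d at *
  generalize c / 128 = e at *
  interval_cases e
  · exact key 0 tabChunk_0 d hmod
  · exact key 128 tabChunk_128 d hmod
  · exact key 256 tabChunk_256 d hmod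
  · exact key 384 tabChunk_384 d hmod
  · exact key 512 tabChunk_512 d hmod
  · exact key 640 tabChunk_640 d hmod
  · exact key 768 tabChunk_768 d hmod
  · exact key 896 tabChunk_896 d hmod

theorem classify (c : ℕ) (hc : c < 1024) (h : Valid (mk7 (bitsOf c))) :
    ∃ p ∈ relabel, goodB c p = true := by
  rw [tab_eq c hc] at h
  have key : ∀ a, chunk a = true → ∀ d, d < 32 → Valid (tab (a + d)) →
      ∃ p ∈ relabel, goodB (a + d) p = true := by
    intro a ha d hd hv
    have h1 := (List.all_eq_true.1 ha) d (List.mem_range.2 hd)
    rw [validB_of_valid hv] at h1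
    simpa using h1
  have hdiv : c / 32 < 32 := by omega
  have hmod : c % 32 < 32 := Nat.mod_lt _ (by norm_num)
  have hc' : 32 * (c / 32) + c % 32 = c := Nat.div_add_mod c 32
  rw [← hc'] at h ⊢
  generalize c % 32 = d at *
  generalize c / 32 = e at *
  interval_cases e
  · exact key 0 chunk_0 d hmod h
  · exact key 32 chunk_32 d hmod h
  · exact key 64 chunk_64 d hmod h
  · exact key 96 chunk_96 d hmod h
  · exact key 128 chunk_128 d hmod h
  · exact key 160 chunk_160 d hmod h
  · exact key 192 chunk_192 d hmod h
  · exact key 224 chunk_224 d hmod h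
  · exact key 256 chunk_256 d hmod h
  · exact key 288 chunk_288 d hmod h
  · exact key 320 chunk_320 d hmod h
  · exact key 352 chunk_352 d hmod h
  · exact key 384 chunk_384 d hmod h
  · exact key 416 chunk_416 d hmod h
  · exact key 448 chunk_448 d hmod h
  · exact key 480 chunk_480 d hmod h
  · exact key 512 chunk_512 d hmod h
  · exact key 544 chunk_544 d hmod h
  · exact key 576 chunk_576 d hmod h
  · exact key 608 chunk_608 d hmod h
  · exact key 640 chunk_640 d hmod h
  · exact key 672 chunk_672 d hmod h
  · exact key 704 chunk_704 d hmod h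
  · exact key 736 chunk_736 d hmod h
  · exact key 768 chunk_768 d hmod h
  · exact key 800 chunk_800 d hmod h
  · exact key 832 chunk_832 d hmod h
  · exact key 864 chunk_864 d hmod h
  · exact key 896 chunk_896 d hmod h
  · exact key 928 chunk_928 d hmod h
  · exact key 960 chunk_960 d hmod h
  · exact key 992 chunk_992 d hmod h

end Vale.Agent.P183
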