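import Mathlib

/-!
# The finite lattice representation problem: definitions

Finite algebras, congruences, representable lattices, and the seven element lattice obtained by
gluing two pentagons along a three element chain.
-/

namespace Vale.Agent.P183

/-- A finite algebra: a nonempty finite carrier with a finite list of total operations of finite
arity (an operation of arity `n` is a map `(Fin n → carrier) → carrier`). -/
structure FinAlg where
  carrier : Type
  finite : Finite carrier
  nonempty : Nonempty carrier
  ops : List (Sigma fun n : ℕ => (Fin n → carrier) → carrier)

/-- The equivalence relation `r` is a congruence of `A`: it is compatible with every operation. -/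
def IsCongr (A : FinAlg) (r : Setoid A.carrier) : Prop :=
  ∀ o ∈ A.ops, ∀ a b : Fin o.1 → A.carrier, (∀ i, r (a i) (b i)) → r (o.2 a) (o.2 b)

/-- The set of all congruences of `A`, ordered by inclusion. -/
def Con (A : FinAlg) : Type := {r : Setoid A.carrier // IsCongr A r}

instance (A : FinAlg) : PartialOrder (Con A) := inferInstanceAs (PartialOrder (Subtype _))

/-- A lattice is representable if it is isomorphic to the lattice of all congruences of a finite
algebra. -/
def Representable (L : Type) [Lattice L] : Prop :=
  ∃ A : FinAlg, Nonempty (L ≃o Con A)

/-- The seven element lattice with `bot < x < y < w < top`, `bot < z < w` and `x < v < top`. -/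
inductive L7 : Type
  | bot | x | y | z | w | v | top
  deriving DecidableEq

namespace L7

instance : Fintype L7 :=
  ⟨{bot, x, y, z, w, v, top}, fun a => by cases a <;> decide⟩

/-- The order of `L7`. -/
def leB : L7 → L7 → Bool
  | bot, _ => true
  | _, top => true
  | x, x => true
  | x, y => true
  | x, w => true
  | x, v => true
  | y, y => true
  | y, w => true
  | z, z => true
  | z, w => true
  | w, w => true
  | v, v => true
  | _, _ => false

instance : Lattice L7 where
  le := fun a b => leB a b = true
  le_refl := by decide
  le_trans := by decide
  le_antisymm := by decide
  sup := fun a b => if leB a b then b else if leB b a then a else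
    if leB a w && leB b w then w else top
  inf := fun a b => if leB a b then a else if leB b a then b else
    if leB x a && leB x b then x else bot
  le_sup_left := by decide
  le_sup_right := by decide
  sup_le := by decide
  inf_le_left := by decide
  inf_le_right := by decide
  le_inf := by decide

theorem le_iff (a b : L7) : a ≤ b ↔ leB a b = true := Iff.rfl

end L7

end Vale.Agent.P183
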