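import Vale.Agent.P183.Defs

/-!
# Intervals of subgroup lattices are congruence lattices

For subgroups `H ≤ G` of a finite group, the algebra with carrier the cosets of `H` in `G` and with
the left multiplications by the elements of `G` as unary operations has a congruence lattice
isomorphic to the interval from `H` to `G` of the subgroup lattice.
-/

namespace Vale.Agent.P183

/-- The coset algebra. -/
noncomputable def cosetAlg {G : Type} [Group G] [Finite G] (H : Subgroup G) : FinAlg :=
  { carrier := G ⧸ H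
    finite := inferInstance
    nonempty := ⟨((1 : G) : G ⧸ H)⟩
    ops := (@Finset.univ G (Fintype.ofFinite G)).toList.map
      (fun g => ⟨1, fun v : Fin 1 → G ⧸ H => g • v 0⟩) }

theorem cosetAlg_mem_ops {G : Type} [Group G] [Finite G] (H : Subgroup G)
    (o : Sigma fun n : ℕ => (Fin n → G ⧸ H) → G ⧸ H) :
    o ∈ (cosetAlg H).ops ↔ ∃ g : G, (⟨1, fun v : Fin 1 → G ⧸ H => g • v 0⟩ : Sigma fun n : ℕ => (Fin n → G ⧸ H) → G ⧸ H) = o := by
  show o ∈ (@Finset.univ G (Fintype.ofFinite G)).toList.map
      (fun g => (⟨1, fun v : Fin 1 → G ⧸ H => g • v 0⟩ : Sigma fun n : ℕ => (Fin n → G ⧸ H) → G ⧸ H)) ↔ _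
  simp only [List.mem_map, Finset.mem_toList, Finset.mem_univ, true_and]

theorem cosetAlg_isCongr_iff {G : Type} [Group G] [Finite G] (H : Subgroup G)
    (r : Setoid (G ⧸ H)) :
    IsCongr (cosetAlg H) r ↔ ∀ (g : G) (a b : G ⧸ H), r a b → r (g • a) (g • b) := by
  constructor
  · intro h g a b hab
    exact h ⟨1, fun v : Fin 1 → G ⧸ H => g • v 0⟩ ((cosetAlg_mem_ops H _).2 ⟨g, rfl⟩)
      (fun _ => a) (fun _ => b) (fun _ => hab)
  · intro h o ho a b hab
    obtain ⟨g, rfl⟩ := (cosetAlg_mem_ops H o).1 ho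
    exact h g _ _ (hab 0)

/-- The subgroup attached to a congruence. -/
def congrSubgroup {G : Type} [Group G] (H : Subgroup G) (r : Setoid (G ⧸ H))
    (hr : ∀ (g : G) (a b : G ⧸ H), r a b → r (g • a) (g • b)) : Subgroup G where
  carrier := {g | r (g : G ⧸ H) ((1 : G) : G ⧸ H)}
  one_mem' := r.refl _
  mul_mem' := by
    intro a b ha hb
    have h1 := hr a _ _ hb
    have e1 : a • ((b : G) : G ⧸ H) = ((a * b : G) : G ⧸ H) := rfl
    have e2 : a • ((1 : G) : G ⧸ H) = ((a : G) : G ⧸ H) := by
      rw [MulAction.Quotient.smul_coe, smul_eq_mul, mul_one]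
    rw [e1, e2] at h1
    exact r.trans h1 ha
  inv_mem' := by
    intro a ha
    have h1 := hr a⁻¹ _ _ ha
    have e1 : a⁻¹ • ((a : G) : G ⧸ H) = ((1 : G) : G ⧸ H) := by
      rw [MulAction.Quotient.smul_coe, smul_eq_mul, inv_mul_cancel]
    have e2 : a⁻¹ • ((1 : G) : G ⧸ H) = ((a⁻¹ : G) : G ⧸ H) := by
      rw [MulAction.Quotient.smul_coe, smul_eq_mul, mul_one]
    rw [e1, e2] at h1
    exact r.symm h1

theorem mem_congrSubgroup {G : Type} [Group G] (H : Subgroup G) (r : Setoid (G ⧸ H))
    (hr : ∀ (g : G) (a b : G ⧸ H), r a b → r (g • a) (g • b)) (g : G) :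
    g ∈ congrSubgroup H r hr ↔ r (g : G ⧸ H) ((1 : G) : G ⧸ H) := Iff.rfl

theorem le_congrSubgroup {G : Type} [Group G] (H : Subgroup G) (r : Setoid (G ⧸ H))
    (hr : ∀ (g : G) (a b : G ⧸ H), r a b → r (g • a) (g • b)) :
    H ≤ congrSubgroup H r hr := by
  intro h hh
  rw [mem_congrSubgroup]
  have : ((h : G) : G ⧸ H) = ((1 : G) : G ⧸ H) := by
    rw [QuotientGroup.eq]
    simpa using H.inv_mem hh
  rw [this]

theorem congr_rel_iff {G : Type} [Group G] (H : Subgroup G) (r : Setoid (G ⧸ H))
    (hr : ∀ (g : G) (a b : G ⧸ H), r a b → r (g • a) (g • b)) (a b : G) :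
    r (a : G ⧸ H) (b : G ⧸ H) ↔ b⁻¹ * a ∈ congrSubgroup H r hr := by
  rw [mem_congrSubgroup]
  constructor
  · intro h
    have h1 := hr b⁻¹ _ _ h
    rw [MulAction.Quotient.smul_coe, MulAction.Quotient.smul_coe, smul_eq_mul, smul_eq_mul,
      inv_mul_cancel] at h1
    exact h1
  · intro h
    have h1 := hr b _ _ h
    rw [MulAction.Quotient.smul_coe, MulAction.Quotient.smul_coe, smul_eq_mul, smul_eq_mul,
      mul_one, mul_inv_cancel_left] at h1
    exact h1

/-- The congruence attached to an overgroup. -/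
def subgroupSetoid {G : Type} [Group G] (H X : Subgroup G) (hX : H ≤ X) : Setoid (G ⧸ H) :=
  Setoid.ker (Subgroup.quotientMapOfLE hX)

theorem subgroupSetoid_rel {G : Type} [Group G] (H X : Subgroup G) (hX : H ≤ X) (a b : G) :
    subgroupSetoid H X hX (a : G ⧸ H) (b : G ⧸ H) ↔ b⁻¹ * a ∈ X := by
  unfold subgroupSetoid
  rw [Setoid.ker_def, Subgroup.quotientMapOfLE_apply_mk, Subgroup.quotientMapOfLE_apply_mk,
    eq_comm, QuotientGroup.eq]

theorem subgroupSetoid_smul {G : Type} [Group G] (H X : Subgroup G) (hX : H ≤ X)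
    (g : G) (a b : G ⧸ H) (h : subgroupSetoid H X hX a b) :
    subgroupSetoid H X hX (g • a) (g • b) := by
  induction a using QuotientGroup.induction_on with
  | H a =>
    induction b using QuotientGroup.induction_on with
    | H b =>
      rw [MulAction.Quotient.smul_coe, MulAction.Quotient.smul_coe, subgroupSetoid_rel]
      rw [subgroupSetoid_rel] at h
      simpa [mul_assoc] using h

theorem exists_alg_Ici {G : Type} [Group G] [Finite G] (H : Subgroup G) :
    ∃ A : FinAlg, Nonempty (Con A ≃o Set.Ici H) := by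
  refine ⟨cosetAlg H, ⟨?_⟩⟩
  refine
    { toFun := fun r => ⟨congrSubgroup H r.1 ((cosetAlg_isCongr_iff H r.1).1 r.2),
        le_congrSubgroup H r.1 _⟩
      invFun := fun X => ⟨subgroupSetoid H X.1 X.2,
        (cosetAlg_isCongr_iff H _).2 (subgroupSetoid_smul H X.1 X.2)⟩
      left_inv := ?_
      right_inv := ?_
      map_rel_iff' := ?_ }
  · intro r
    apply Subtype.ext
    apply Setoid.ext
    intro a b
    induction a using QuotientGroup.induction_on with
    | H a =>
      induction b using QuotientGroup.induction_on with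
      | H b =>
        exact (subgroupSetoid_rel H _ _ a b).trans
          (congr_rel_iff H r.1 ((cosetAlg_isCongr_iff H r.1).1 r.2) a b).symm
  · intro X
    apply Subtype.ext
    ext g
    show g ∈ congrSubgroup H (subgroupSetoid H X.1 X.2) (subgroupSetoid_smul H X.1 X.2) ↔ g ∈ X.1
    rw [mem_congrSubgroup]
    refine (subgroupSetoid_rel H X.1 X.2 g 1).trans ?_
    simp
  · intro r s
    constructor
    · intro h
      show r.1 ≤ s.1
      intro a b hab
      induction a using QuotientGroup.induction_on with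
      | H a =>
        induction b using QuotientGroup.induction_on with
        | H b =>
          exact (congr_rel_iff H s.1 ((cosetAlg_isCongr_iff H s.1).1 s.2) a b).2
            (h ((congr_rel_iff H r.1 ((cosetAlg_isCongr_iff H r.1).1 r.2) a b).1 hab))
    · intro h g hg
      exact h hg

/-- The subgroups of `↥G` above `H.subgroupOf G` correspond to the subgroups between `H` and `G`. -/
private def iciIcc {E : Type} [Group E] (H G : Subgroup E) (hHG : H ≤ G) :
    Set.Ici (H.subgroupOf G) ≃o Set.Icc H G where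
  toFun K := ⟨K.1.map G.subtype, by
    constructor
    · have h := Subgroup.map_mono (f := G.subtype) K.2
      rwa [Subgroup.map_subgroupOf_eq_of_le hHG] at h
    · exact Subgroup.map_subtype_le K.1⟩
  invFun K := ⟨K.1.subgroupOf G, Subgroup.comap_mono K.2.1⟩
  left_inv K := Subtype.ext
    (Subgroup.comap_map_eq_self_of_injective G.subtype_injective K.1)
  right_inv K := Subtype.ext (Subgroup.map_subgroupOf_eq_of_le K.2.2)
  map_rel_iff' := by
    intro K K'
    exact Subgroup.map_le_map_iff_of_injective G.subtype_injective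

theorem exists_alg_Icc {E : Type} [Group E] [Finite E] (H G : Subgroup E) (hHG : H ≤ G) :
    ∃ A : FinAlg, Nonempty (Con A ≃o Set.Icc H G) := by
  obtain ⟨A, ⟨e⟩⟩ := exists_alg_Ici (H.subgroupOf G)
  exact ⟨A, ⟨e.trans (iciIcc H G hHG)⟩⟩

end Vale.Agent.P183
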