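import Vale.Agent.P183.Defs

/-!
# Recognising an interval of a subgroup lattice
-/

namespace Vale.Agent.P183

/-- A family `Y` of subgroups indexed by a finite lattice `L` is the whole interval from `H` to
`G` as soon as it is an order embedding, is compatible with joins, and every element `p` of `G`
lies in a member of the family that is contained in the subgroup generated by `H` and `p`. -/
theorem icc_iso {E : Type} [Group E] {L : Type} [Lattice L] [Finite L]
    (Y : L → Subgroup E) (H G : Subgroup E)
    (hH : ∀ i, H ≤ Y i) (hG : ∀ i, Y i ≤ G)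
    (emb : ∀ i j, Y i ≤ Y j ↔ i ≤ j)
    (join : ∀ i j, Y (i ⊔ j) ≤ Y i ⊔ Y j)
    (cover : ∀ p ∈ G, ∃ i, p ∈ Y i ∧ Y i ≤ H ⊔ Subgroup.zpowers p) :
    Nonempty (L ≃o Set.Icc H G) := by
  classical
  have : Fintype L := Fintype.ofFinite L
  let f : L → Set.Icc H G := fun i => ⟨Y i, hH i, hG i⟩
  have hle : ∀ i j, f i ≤ f j ↔ i ≤ j := fun i j => emb i j
  have hsurj : Function.Surjective f := by
    rintro ⟨X, hHX, hXG⟩
    -- the set of indices below X
    let S : Finset L := Finset.univ.filter (fun i => Y i ≤ X)
    have hcov : ∀ p ∈ X, ∃ i ∈ S, p ∈ Y i := by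
      intro p hp
      obtain ⟨i, hpi, hi⟩ := cover p (hXG hp)
      refine ⟨i, ?_, hpi⟩
      simp only [S, Finset.mem_filter, Finset.mem_univ, true_and]
      refine hi.trans (sup_le hHX ?_)
      rw [Subgroup.zpowers_le]
      exact hp
    have hne : S.Nonempty := by
      obtain ⟨i, hi, _⟩ := hcov 1 X.one_mem
      exact ⟨i, hi⟩
    have hmem : S.sup' hne id ∈ S := by
      refine Finset.sup'_mem (↑S : Set L) ?_ S hne id (fun i hi => hi)
      intro i hi j hj
      have hi' : Y i ≤ X := by
        have := Finset.mem_coe.mp hi
        simpa [S] using this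
      have hj' : Y j ≤ X := by
        have := Finset.mem_coe.mp hj
        simpa [S] using this
      apply Finset.mem_coe.mpr
      simp only [S, Finset.mem_filter, Finset.mem_univ, true_and]
      exact (join i j).trans (sup_le hi' hj')
    refine ⟨S.sup' hne id, ?_⟩
    apply Subtype.ext
    show Y (S.sup' hne id) = X
    apply le_antisymm
    · simpa [S] using hmem
    · intro p hp
      obtain ⟨i, hi, hpi⟩ := hcov p hp
      have : i ≤ S.sup' hne id := Finset.le_sup' id hi
      exact ((emb i _).mpr this) hpi
  have hinj : Function.Injective f := by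
    intro i j hij
    apply le_antisymm
    · exact (hle i j).mp (le_of_eq hij)
    · exact (hle j i).mp (le_of_eq hij.symm)
  exact ⟨{ toEquiv := Equiv.ofBijective f ⟨hinj, hsurj⟩
           map_rel_iff' := by
             intro i j
             exact hle i j }⟩

end Vale.Agent.P183
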