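import Vale.Agent.P183.Defs

/-!
# The seven element lattice made of the product of a two and a three element chain and a
common complement
-/

namespace Vale.Agent.P183

/-- The seven element lattice with `bot < j1 < m1 < top`, `bot < j2 < m1`, `j2 < m2 < top` and
`bot < k < top`. -/
inductive N7 : Type
  | bot | j1 | j2 | k | m1 | m2 | top
  deriving DecidableEq

namespace N7

instance : Fintype N7 :=
  ⟨{bot, j1, j2, k, m1, m2, top}, fun a => by cases a <;> decide⟩

/-- The order of `N7`. -/
def leB : N7 → N7 → Bool
  | bot, _ => true
  | _, top => true
  | j1, j1 => true
  | j1, m1 => true
  | j2, j2 => true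
  | j2, m1 => true
  | j2, m2 => true
  | k, k => true
  | m1, m1 => true
  | m2, m2 => true
  | _, _ => false

instance : Lattice N7 where
  le := fun a b => leB a b = true
  le_refl := by decide
  le_trans := by decide
  le_antisymm := by decide
  sup := fun a b => if leB a b then b else if leB b a then a else
    if leB a m1 && leB b m1 then m1 else top
  inf := fun a b => if leB a b then a else if leB b a then b else
    if leB j2 a && leB j2 b then j2 else bot
  le_sup_left := by decide
  le_sup_right := by decide
  sup_le := by decide
  inf_le_left := by decide
  inf_le_right := by decide
  le_inf := by decide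

theorem le_iff (a b : N7) : a ≤ b ↔ leB a b = true := Iff.rfl

instance (a b : N7) : Decidable (a ≤ b) := inferInstanceAs (Decidable (leB a b = true))

end N7

end Vale.Agent.P183
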