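import Vale.Agent.P183.Defs

/-!
# Quotient algebras: upper intervals of congruence lattices are congruence lattices
-/

namespace Vale.Agent.P183

/-- The quotient algebra of `A` by the equivalence relation `r`. -/
private noncomputable def quotAlg (A : FinAlg) (r : Setoid A.carrier) : FinAlg where
  carrier := Quotient r
  finite := by
    haveI := A.finite
    exact Quotient.finite _
  nonempty := by
    haveI := A.nonempty
    exact ⟨Quotient.mk _ (Classical.arbitrary A.carrier)⟩
  ops := A.ops.map fun o => ⟨o.1, fun q => Quotient.mk _ (o.2 fun i => (q i).out)⟩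

/-- The pull back of a congruence of the quotient algebra is a congruence. -/
private theorem comap_isCongr (A : FinAlg) (r : Setoid A.carrier) (hr : IsCongr A r)
    (s : Setoid (Quotient r)) (hs : IsCongr (quotAlg A r) s) :
    IsCongr A (Setoid.comap (Quotient.mk r) s) := by
  intro o ho a b hab
  have hmem : (⟨o.1, fun q => Quotient.mk r (o.2 fun i => (q i).out)⟩ :
      Sigma fun n : ℕ => (Fin n → Quotient r) → Quotient r) ∈ (quotAlg A r).ops :=
    List.mem_map.2 ⟨o, ho, rfl⟩
  have h1 := hs _ hmem (fun i => Quotient.mk r (a i)) (fun i => Quotient.mk r (b i)) hab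
  have ha : Quotient.mk r (o.2 fun i => (Quotient.mk r (a i)).out)
      = Quotient.mk r (o.2 a) :=
    Quotient.sound (hr o ho _ _ fun i => Quotient.mk_out (s := r) (a i))
  have hb : Quotient.mk r (o.2 fun i => (Quotient.mk r (b i)).out)
      = Quotient.mk r (o.2 b) :=
    Quotient.sound (hr o ho _ _ fun i => Quotient.mk_out (s := r) (b i))
  change s (Quotient.mk r (o.2 a)) (Quotient.mk r (o.2 b))
  rw [← ha, ← hb]
  exact h1

/-- A setoid on the quotient whose pull back is a congruence is a congruence. -/
private theorem isCongr_of_comap (A : FinAlg) (r : Setoid A.carrier)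
    (s : Setoid (Quotient r)) (hs : IsCongr A (Setoid.comap (Quotient.mk r) s)) :
    IsCongr (quotAlg A r) s := by
  intro o' ho' a b hab
  obtain ⟨o, ho, rfl⟩ := List.mem_map.1 ho'
  have h1 := hs o ho (fun i => Quotient.out (s := r) (a i))
    (fun i => Quotient.out (s := r) (b i)) (by
    intro i
    have e1 : Quotient.mk r (Quotient.out (s := r) (a i)) = a i := Quotient.out_eq _
    have e2 : Quotient.mk r (Quotient.out (s := r) (b i)) = b i := Quotient.out_eq _
    change s (Quotient.mk r (Quotient.out (s := r) (a i)))
      (Quotient.mk r (Quotient.out (s := r) (b i)))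
    rw [e1, e2]
    exact hab i)
  exact h1

/-- The order isomorphism, stated for subtypes. -/
private theorem exists_quotient_aux (A : FinAlg) (r : Setoid A.carrier) (hr : IsCongr A r) :
    Nonempty ({s : Setoid (Quotient r) // IsCongr (quotAlg A r) s} ≃o
      {θ : {t : Setoid A.carrier // IsCongr A t} // (⟨r, hr⟩ : {t // IsCongr A t}) ≤ θ}) := by
  let c := Setoid.correspondence r
  have key : ∀ (t : Setoid A.carrier) (ht : r ≤ t),
      Setoid.comap (Quotient.mk r) (c ⟨t, ht⟩) = t := fun t ht =>
    congrArg Subtype.val (c.symm_apply_apply ⟨t, ht⟩)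
  refine ⟨
    { toFun := fun s => ⟨⟨(c.symm s.1).1, comap_isCongr A r hr s.1 s.2⟩, (c.symm s.1).2⟩
      invFun := fun θ => ⟨c ⟨θ.1.1, θ.2⟩, isCongr_of_comap A r _ ?_⟩
      left_inv := ?_
      right_inv := ?_
      map_rel_iff' := ?_ }⟩
  · rw [key]
    exact θ.1.2
  · intro s
    apply Subtype.ext
    exact c.apply_symm_apply s.1
  · intro θ
    apply Subtype.ext
    apply Subtype.ext
    exact key θ.1.1 θ.2
  · intro s t
    exact c.symm.map_rel_iff (a := s.1) (b := t.1)

/-- The congruences above `α` form the congruence lattice of a finite algebra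
(the quotient algebra). -/
theorem exists_quotient (A : FinAlg) (α : Con A) :
    ∃ A' : FinAlg, Nonempty (Con A' ≃o {θ : Con A // α ≤ θ}) :=
  ⟨quotAlg A α.1, exists_quotient_aux A α.1 α.2⟩

end Vale.Agent.P183
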