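import Vale.Agent.P183.Defs

/-!
# Finite orders given by a Boolean table, and their representations
-/

namespace Vale.Agent.P183

/-- The order on `Fin m` given by the table `T` is that of the congruences of a finite algebra. -/
def RepTable (m : ℕ) (T : Fin m → Fin m → Bool) : Prop :=
  ∃ (A : FinAlg) (e : Fin m ≃ Con A), ∀ i j, T i j = true ↔ e i ≤ e j

theorem representable_of_table {L : Type} [Lattice L] {m : ℕ} {T : Fin m → Fin m → Bool}
    (e : L ≃ Fin m) (he : ∀ a b, a ≤ b ↔ T (e a) (e b) = true) (h : RepTable m T) :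
    Representable L := by
  obtain ⟨A, f, hf⟩ := h
  exact ⟨A, ⟨{ toEquiv := e.trans f
               map_rel_iff' := fun {a b} => by
                 rw [he a b, hf]
                 rfl }⟩⟩

theorem RepTable.perm {m : ℕ} {T T' : Fin m → Fin m → Bool} (h : RepTable m T)
    (σ : Fin m ≃ Fin m) (hσ : ∀ i j, T' i j = T (σ i) (σ j)) : RepTable m T' := by
  obtain ⟨A, f, hf⟩ := h
  exact ⟨A, σ.trans f, fun i j => by rw [hσ, hf]; rfl⟩

end Vale.Agent.P183
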