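import Vale.Agent.P183.Defs

/-!
# A twelve element unary algebra whose congruence lattice is `L7`
-/

namespace Vale.Agent.P183

namespace Twelve

open L7

instance : DecidableRel (fun a b : L7 => a ≤ b) := fun a b =>
  inferInstanceAs (Decidable (leB a b = true))

instance : OrderBot L7 where
  bot := bot
  bot_le := by decide

/-- The three unary operations. -/
def op : Fin 3 → Fin 12 → Fin 12 :=
  ![![0, 1, 0, 1, 1, 0, 1, 0, 7, 7, 7, 7],
    ![4, 5, 6, 7, 8, 9, 10, 11, 0, 1, 2, 3],
    ![5, 4, 7, 6, 1, 0, 3, 2, 9, 8, 11, 10]]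

/-- The algebra. -/
def alg : FinAlg where
  carrier := Fin 12
  finite := inferInstance
  nonempty := ⟨0⟩
  ops := [⟨1, fun a => op 0 (a 0)⟩, ⟨1, fun a => op 1 (a 0)⟩, ⟨1, fun a => op 2 (a 0)⟩]

/-- Labels of the classes of the seven congruences. -/
def lab : L7 → Fin 12 → Fin 12
  | bot => ![0, 1, 2, 3, 4, 5, 6, 7, 8, 9, 10, 11]
  | x => ![0, 0, 1, 2, 3, 3, 4, 5, 6, 6, 7, 8]
  | y => ![0, 0, 1, 1, 2, 2, 3, 3, 4, 4, 5, 5]
  | z => ![0, 1, 0, 1, 2, 3, 2, 3, 4, 5, 4, 5]
  | w => ![0, 0, 0, 0, 1, 1, 1, 1, 2, 2, 2, 2]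
  | v => ![0, 0, 1, 2, 1, 1, 2, 0, 2, 2, 0, 1]
  | top => ![0, 0, 0, 0, 0, 0, 0, 0, 0, 0, 0, 0]

/-- The seven equivalence relations. -/
def S (t : L7) : Setoid (Fin 12) := Setoid.ker (lab t)

theorem S_iff (t : L7) (a b : Fin 12) : S t a b ↔ lab t a = lab t b := Iff.rfl

theorem isCongr_iff (r : Setoid (Fin 12)) :
    IsCongr alg r ↔ ∀ k a b, r a b → r (op k a) (op k b) := by
  constructor
  · intro h k a b hab
    have key : ∀ o ∈ alg.ops, ∀ a b : Fin o.1 → Fin 12, (∀ i, r (a i) (b i)) →
        r (o.2 a) (o.2 b) := h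
    fin_cases k
    · exact key ⟨1, fun a => op 0 (a 0)⟩ (List.Mem.head _) (fun _ => a) (fun _ => b)
        (fun _ => hab)
    · exact key ⟨1, fun a => op 1 (a 0)⟩ (List.Mem.tail _ (List.Mem.head _)) (fun _ => a)
        (fun _ => b) (fun _ => hab)
    · exact key ⟨1, fun a => op 2 (a 0)⟩ (List.Mem.tail _ (List.Mem.tail _ (List.Mem.head _)))
        (fun _ => a) (fun _ => b) (fun _ => hab)
  · intro h o ho a b hab
    rcases List.mem_cons.1 ho with rfl | ho
    · exact h 0 _ _ (hab 0)
    rcases List.mem_cons.1 ho with rfl | ho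
    · exact h 1 _ _ (hab 0)
    rcases List.mem_cons.1 ho with rfl | ho
    · exact h 2 _ _ (hab 0)
    · exact absurd ho List.not_mem_nil

theorem S_congr (t : L7) : IsCongr alg (S t) := by
  rw [isCongr_iff]
  have : ∀ (t : L7) (k : Fin 3) (a b : Fin 12), lab t a = lab t b →
      lab t (op k a) = lab t (op k b) := by decide +kernel
  exact fun k a b h => this t k a b h

theorem S_le_iff (s t : L7) : S s ≤ S t ↔ s ≤ t := by
  have h : ∀ s t : L7, (∀ a b : Fin 12, lab s a = lab s b → lab t a = lab t b) ↔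
      leB s t = true := by decide +kernel
  rw [L7.le_iff, ← h s t]
  exact ⟨fun H a b hab => H hab, fun H a b hab => H a b hab⟩

/-- Apply a word in the operations. -/
def app : List (Fin 3) → Fin 12 → Fin 12
  | [], a => a
  | k :: ks, a => app ks (op k a)

/-- The word sends the unordered pair `u, u'` to the unordered pair `a, b`. -/
def hits (ws : List (Fin 3)) (u u' a b : Fin 12) : Bool :=
  (app ws u == a && app ws u' == b) || (app ws u == b && app ws u' == a)

/-- The least element of `L7` whose relation contains the pair. -/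
def typ (a b : Fin 12) : L7 :=
  if a = b then bot else if lab x a = lab x b then x else if lab z a = lab z b then z
  else if lab y a = lab y b then y else if lab v a = lab v b then v
  else if lab w a = lab w b then w else top

/-- Distinguished pairs. -/
def canon : L7 → Fin 12 × Fin 12
  | bot => (0, 0)
  | x => (0, 1)
  | y => (2, 3)
  | z => (0, 2)
  | w => (0, 3)
  | v => (0, 7)
  | top => (0, 7)

/-- Words sending a pair to the distinguished pair of its kind. -/
def wordTo : Fin 12 → Fin 12 → List (Fin 3) :=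
  ![![[], [], [], [], [1,1,0], [1,0,1,0], [1,1,0], [], [0], [0], [0], [0]],
    ![[], [], [1,2], [1,2], [1,0], [1,0], [1,0], [1,0], [0,1,0], [0,1,0], [1,2], [0,1,0]],
    ![[], [1,2], [], [], [1,1,0], [2], [1,1,0], [1,0,1,0], [0], [0], [0], [0]],
    ![[], [1,2], [], [], [1,0], [1,0], [1,0], [1,0], [1], [0,1,0], [0,1,0], [0,1,0]],
    ![[1,1,0], [1,0], [1,1,0], [1,0], [], [0], [1,1], [1,1], [1,0], [0,1,0], [1,0], [1,1]],
    ![[1,0,1,0], [1,0], [2], [1,0], [0], [], [2], [2], [0], [0], [0], [0]],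
    ![[1,1,0], [1,0], [1,1,0], [1,0], [1,1], [2], [], [2], [1,0], [2,1], [1,0], [0,1,0]],
    ![[], [1,0], [1,0,1,0], [1,0], [1,1], [2], [2], [], [0], [0], [0], [0]],
    ![[0], [0,1,0], [0], [1], [1,0], [0], [1,0], [0], [], [1], [1], [1]],
    ![[0], [0,1,0], [0], [0,1,0], [0,1,0], [0], [2,1], [0], [1], [], [2,1], [2,1]],
    ![[0], [1,2], [0], [0,1,0], [1,0], [0], [1,0], [0], [1], [2,1], [], [1]],
    ![[0], [0,1,0], [0], [0,1,0], [1,1], [0], [0,1,0], [0], [1], [2,1], [1], []]]

/-- Representatives of the classes of the four join irreducible relations. -/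
def rep : L7 → Fin 12 → Fin 12
  | x => ![0, 0, 2, 3, 4, 4, 6, 7, 8, 8, 10, 11]
  | y => ![0, 0, 2, 2, 4, 4, 6, 6, 8, 8, 10, 10]
  | z => ![0, 1, 0, 1, 4, 5, 4, 5, 8, 9, 8, 9]
  | v => ![0, 0, 4, 8, 4, 4, 8, 0, 8, 8, 0, 4]
  | _ => ![0, 1, 2, 3, 4, 5, 6, 7, 8, 9, 10, 11]

/-- Words sending the distinguished pair to the pair formed by a point and its representative. -/
def wordFrom : L7 → Fin 12 → List (Fin 3)
  | x => ![[], [], [], [], [], [1], [], [], [], [1,1], [], []]
  | y => ![[], [0], [], [], [], [0,1], [], [1], [], [0,1,1], [], [1,1]]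
  | z => ![[], [], [], [1,2], [], [], [1], [2], [], [], [1,1], [2,1]]
  | v => ![[], [1,0,0], [1,0,2], [1,1], [], [1,0,0,1], [1,0,2,1], [], [], [1,0,0,1,1],
      [1,0,1,2], [1]]
  | _ => fun _ => []

/-- The join irreducible elements. -/
def irr : L7 → Bool
  | x => true
  | y => true
  | z => true
  | v => true
  | _ => false

section

variable {r : Setoid (Fin 12)} (hr : ∀ k a b, r a b → r (op k a) (op k b))

include hr

theorem app_rel : ∀ (ws : List (Fin 3)) (a b : Fin 12), r a b → r (app ws a) (app ws b)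
  | [], _, _, h => h
  | k :: ks, a, b, h => app_rel ks _ _ (hr k a b h)

theorem of_hits {ws : List (Fin 3)} {u u' a b : Fin 12} (h : hits ws u u' a b = true)
    (hu : r u u') : r a b := by
  have h1 := app_rel hr ws u u' hu
  simp only [hits, Bool.or_eq_true, Bool.and_eq_true, beq_iff_eq] at h
  rcases h with ⟨h2, h3⟩ | ⟨h2, h3⟩
  · rw [h2, h3] at h1
    exact h1
  · rw [h2, h3] at h1
    exact r.symm h1

theorem to_canon {u u' : Fin 12} (hu : r u u') :
    r (canon (typ u u')).1 (canon (typ u u')).2 := by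
  have h : ∀ u u' : Fin 12,
      hits (wordTo u u') u u' (canon (typ u u')).1 (canon (typ u u')).2 = true ∨ u = u' := by
    decide +kernel
  rcases h u u' with h | rfl
  · exact of_hits hr h hu
  · have : typ u u = bot := by simp [typ]
    rw [this]
    exact r.refl _

theorem from_canon {t : L7} (ht : irr t = true) (hc : r (canon t).1 (canon t).2) : S t ≤ r := by
  have h1 : ∀ (t : L7) (a : Fin 12), irr t = true →
      hits (wordFrom t a) (canon t).1 (canon t).2 (rep t a) a = true ∨ rep t a = a := by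
    decide +kernel
  have h2 : ∀ (t : L7) (a b : Fin 12), irr t = true → lab t a = lab t b → rep t a = rep t b := by
    decide +kernel
  have h3 : ∀ a, r (rep t a) a := by
    intro a
    rcases h1 t a ht with h | h
    · exact of_hits hr h hc
    · rw [h]
  intro a b hab
  have := h2 t a b ht hab
  exact r.trans (r.symm (h3 a)) (this ▸ h3 b)

theorem irr_le {u u' : Fin 12} (hu : r u u') (ht : irr (typ u u') = true) : S (typ u u') ≤ r :=
  from_canon hr ht (to_canon hr hu)

omit hr in
theorem join_w (hx : S x ≤ r) (hz : S z ≤ r) : S w ≤ r := by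
  have h : ∀ a b : Fin 12, lab w a = lab w b →
      ∃ c d, lab z a = lab z c ∧ lab x c = lab x d ∧ lab z d = lab z b := by decide +kernel
  intro a b hab
  obtain ⟨c, d, h1, h2, h3⟩ := h a b hab
  exact r.trans (hz h1) (r.trans (hx h2) (hz h3))

omit hr in
theorem join_top (hy : S y ≤ r) (hv : S v ≤ r) : S top ≤ r := by
  have h : ∀ a b : Fin 12,
      ∃ c d, lab v a = lab v c ∧ lab y c = lab y d ∧ lab v d = lab v b := by decide +kernel
  intro a b _
  obtain ⟨c, d, h1, h2, h3⟩ := h a b
  exact r.trans (hv h1) (r.trans (hy h2) (hv h3))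

omit hr in
theorem S_mono {s t : L7} (h : s ≤ t) (ht : S t ≤ r) : S s ≤ r := ((S_le_iff s t).2 h).trans ht

theorem w_le {u u' : Fin 12} (hu : r u u') (ht : typ u u' = w) : S w ≤ r := by
  have h03 : r 0 3 := by
    have := to_canon hr hu
    rw [ht] at this
    exact this
  have h01 : r 0 1 := hr 0 0 3 h03
  have hx : S x ≤ r := from_canon hr (t := x) rfl h01
  have h13 : r 1 3 := r.trans (r.symm h01) h03
  have hz : S z ≤ r := irr_le hr (u := 1) (u' := 3) h13 (by decide +kernel)
  exact join_w hx hz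

theorem top_le {u u' : Fin 12} (hu : r u u') (ht : typ u u' = top) : S top ≤ r := by
  have h07 : r 0 7 := by
    have := to_canon hr hu
    rw [ht] at this
    exact this
  have hv : S v ≤ r := from_canon hr (t := v) rfl h07
  have h : ∀ u u' : Fin 12, typ u u' = top →
      ∃ d, lab v u' = lab v d ∧ (typ u d = y ∨ typ u d = z ∨ typ u d = w) := by decide +kernel
  obtain ⟨d, h1, h2⟩ := h u u' ht
  have hud : r u d := r.trans hu (hv h1)
  have hy : S y ≤ r := by
    rcases h2 with h2 | h2 | h2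
    · have := irr_le hr hud (by rw [h2]; rfl)
      rwa [h2] at this
    · have hz := irr_le hr hud (by rw [h2]; rfl)
      rw [h2] at hz
      exact S_mono (by decide) (join_w (S_mono (by decide) hv) hz)
    · exact S_mono (by decide) (w_le hr hud h2)
  exact join_top hy hv

/-- Every related pair forces the whole relation of its kind. -/
theorem typ_le {u u' : Fin 12} (hu : r u u') : S (typ u u') ≤ r := by
  rcases ht : typ u u' with _ | _ | _ | _ | _ | _ | _
  · intro a b hab
    have : ∀ a b : Fin 12, lab bot a = lab bot b → a = b := by decide +kernel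
    rw [this a b hab]
  · exact ht ▸ irr_le hr hu (by rw [ht]; rfl)
  · exact ht ▸ irr_le hr hu (by rw [ht]; rfl)
  · exact ht ▸ irr_le hr hu (by rw [ht]; rfl)
  · exact w_le hr hu ht
  · exact ht ▸ irr_le hr hu (by rw [ht]; rfl)
  · exact top_le hr hu ht

omit hr in
theorem mem_typ (u u' : Fin 12) : S (typ u u') u u' := by
  have : ∀ u u' : Fin 12, lab (typ u u') u = lab (typ u u') u' := by decide +kernel
  exact this u u'

omit hr in
theorem join_le {s t : L7} (hs : S s ≤ r) (ht : S t ≤ r) : S (s ⊔ t) ≤ r := by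
  have hx : ∀ {a : L7}, x ≤ a → S a ≤ r → S x ≤ r := fun h => S_mono h
  have key : ∀ s t : L7, s ≤ t ∨ t ≤ s ∨ (s ⊔ t = w ∧ ((x ≤ s ∧ t = z) ∨ (s = z ∧ x ≤ t))) ∨
      (s ⊔ t = top ∧ ((s = v ∧ (y ≤ t ∨ t = z)) ∨ (t = v ∧ (y ≤ s ∨ s = z)))) := by decide
  rcases key s t with h | h | ⟨h, h'⟩ | ⟨h, h'⟩
  · rwa [sup_eq_right.2 h]
  · rwa [sup_eq_left.2 h]
  · rw [h]
    rcases h' with ⟨h1, rfl⟩ | ⟨rfl, h1⟩
    · exact join_w (S_mono h1 hs) ht
    · exact join_w (S_mono h1 ht) hs
  · rw [h]
    rcases h' with ⟨rfl, h1 | rfl⟩ | ⟨rfl, h1 | rfl⟩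
    · exact join_top (S_mono h1 ht) hs
    · exact join_top (S_mono (by decide) (join_w (S_mono (by decide) hs) ht)) hs
    · exact join_top (S_mono h1 hs) ht
    · exact join_top (S_mono (by decide) (join_w (S_mono (by decide) ht) hs)) ht

/-- Every congruence is one of the seven relations. -/
theorem eq_S : ∃ t, r = S t := by
  classical
  let I : Finset L7 := Finset.univ.filter fun t => S t ≤ r
  have hI : S (I.sup id) ≤ r := by
    refine Finset.sup_induction (p := fun t => S t ≤ r) ?_ (fun _ h1 _ h2 => join_le h1 h2) ?_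
    · intro a b hab
      have : ∀ a b : Fin 12, lab bot a = lab bot b → a = b := by decide +kernel
      rw [this a b hab]
    · intro t ht
      exact (Finset.mem_filter.1 ht).2
  refine ⟨I.sup id, le_antisymm ?_ hI⟩
  intro a b hab
  have h1 : typ a b ∈ I := Finset.mem_filter.2 ⟨Finset.mem_univ _, typ_le hr hab⟩
  have h2 : typ a b ≤ I.sup id := Finset.le_sup (f := id) h1
  exact (S_le_iff _ _).2 h2 (mem_typ a b)

end

end Twelve

open Twelve in
/-- The lattice `L7` is the congruence lattice of a twelve element algebra with three unary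
operations. -/
theorem representable_L7 : Representable L7 := by
  refine ⟨alg, ⟨OrderIso.ofSurjective
    (OrderEmbedding.ofMapLEIff (fun t => (⟨S t, S_congr t⟩ : Con alg)) ?_) ?_⟩⟩
  · intro s t
    exact S_le_iff s t
  · rintro ⟨r, hr⟩
    obtain ⟨t, rfl⟩ := eq_S ((isCongr_iff r).1 hr)
    exact ⟨t, rfl⟩

end Vale.Agent.P183
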