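import Vale.Agent.P183.Quot

/-!
# Removing a bottom element
-/

namespace Vale.Agent.P183

/-- The congruences of a finite algebra form a finite set. -/
private theorem finite_con (A : FinAlg) : Finite (Con A) := by
  have := A.finite
  have h1 : Finite (Setoid A.carrier) :=
    Finite.of_injective (fun s : Setoid A.carrier => fun a b => s a b) (by
      intro s t hst
      ext a b
      exact iff_of_eq (congrFun (congrFun hst a) b))
  exact Subtype.finite

/-- If `L` with a new bottom element is representable, then so is `L`. -/
theorem representable_of_withBot (L : Type) [Lattice L] [Nonempty L]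
    (h : Representable (WithBot L)) : Representable L := by
  obtain ⟨A, ⟨e⟩⟩ := h
  have hfin : Finite (WithBot L) := by
    have := finite_con A
    exact Finite.of_equiv _ e.symm.toEquiv
  have hL : Finite L :=
    Finite.of_injective (fun x : L => (x : WithBot L)) WithBot.coe_injective
  obtain ⟨b0, hb0⟩ : ∃ b0 : L, ∀ x : L, b0 ≤ x := by
    have := Fintype.ofFinite L
    exact ⟨Finset.univ.inf' Finset.univ_nonempty id,
      fun x => Finset.inf'_le (f := id) (Finset.mem_univ x)⟩
  obtain ⟨A', ⟨f⟩⟩ := exists_quotient A (e (b0 : WithBot L))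
  let g : L ↪o {θ : Con A // e (b0 : WithBot L) ≤ θ} :=
    { toFun := fun x => ⟨e (x : WithBot L), e.monotone (WithBot.coe_le_coe.2 (hb0 x))⟩
      inj' := by
        intro x y hxy
        have h1 : e (x : WithBot L) = e (y : WithBot L) := congrArg Subtype.val hxy
        exact WithBot.coe_injective (e.injective h1)
      map_rel_iff' := by
        intro x y
        change e (x : WithBot L) ≤ e (y : WithBot L) ↔ x ≤ y
        rw [e.le_iff_le, WithBot.coe_le_coe] }
  have hg : Function.Surjective g := by
    intro θ
    have h1 : (b0 : WithBot L) ≤ e.symm θ.1 := by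
      rw [← e.le_iff_le, e.apply_symm_apply]
      exact θ.2
    obtain ⟨a, ha⟩ : ∃ a : L, e.symm θ.1 = (a : WithBot L) := by
      rcases hx : e.symm θ.1 with _ | a
      · rw [hx] at h1
        exact absurd h1 (WithBot.not_coe_le_bot b0)
      · exact ⟨a, rfl⟩
    refine ⟨a, Subtype.ext ?_⟩
    change e (a : WithBot L) = θ.1
    rw [← ha, e.apply_symm_apply]
  exact ⟨A', ⟨(RelIso.ofSurjective g hg).trans f.symm⟩⟩

end Vale.Agent.P183
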